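import Vale.Agent.P102.Final

open MeasureTheory

namespace Vale.Agent.Results.P102.A_full

theorem result {Ω : Type*} [MeasurableSpace Ω] (μ : Measure Ω) [IsProbabilityMeasure μ]
    (T : Ω ≃ᵐ Ω) (hT : MeasurePreserving T μ μ) (h : Vale.Agent.P102.Mixing μ T) :
    ∀ k : ℕ, 2 ≤ k → Vale.Agent.P102.MixingOfOrder μ T k :=
  Vale.Agent.P102.rokhlin μ T hT h

end Vale.Agent.Results.P102.A_full
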